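import Mathlib

/-!
# P092: group von Neumann algebras, amplifications, property (T)

Definitions used by the statements handed in for P092.
-/

namespace Vale.Agent.P092

open scoped InnerProductSpace ENNReal ComplexConjugate

noncomputable section

/-- The complex Hilbert space `ℓ²(Γ)`. -/
abbrev ell2 (Γ : Type) : Type := lp (fun _ : Γ => ℂ) 2

/-- The unit vector `δ_g` of `ℓ²(Γ)`. -/
def delta {Γ : Type} (g : Γ) : ell2 Γ :=
  letI := Classical.decEq Γ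
  lp.single 2 g (1 : ℂ)

/-- Relabelling the coordinates of `ℓ²` by a bijection `e`: `(relabel e ξ)(x) = ξ (e.symm x)`,
so that `δ_x` goes to `δ_(e x)`. -/
def relabel {α β : Type} (e : α ≃ β) : ell2 α ≃ₗᵢ[ℂ] ell2 β where
  toFun ξ := ⟨fun x => ξ (e.symm x), (memℓp_gen_iff (by simp)).2
    ((e.symm.summable_iff (f := fun i => ‖ξ i‖ ^ (2 : ℝ≥0∞).toReal)).2
      ((memℓp_gen_iff (by simp)).1 (lp.memℓp ξ)))⟩
  invFun ξ := ⟨fun x => ξ (e x), (memℓp_gen_iff (by simp)).2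
    ((e.summable_iff (f := fun i => ‖ξ i‖ ^ (2 : ℝ≥0∞).toReal)).2
      ((memℓp_gen_iff (by simp)).1 (lp.memℓp ξ)))⟩
  map_add' ξ η := by ext x; rfl
  map_smul' c ξ := by ext x; rfl
  left_inv ξ := by ext x; simp
  right_inv ξ := by ext x; simp
  norm_map' ξ := by
    rw [lp.norm_eq_tsum_rpow (by simp), lp.norm_eq_tsum_rpow (by simp)]
    congr 1
    exact e.symm.tsum_eq (fun i => ‖ξ i‖ ^ (2 : ℝ≥0∞).toReal)

/-- The left regular unitary `u_g` of `Γ`, as a bounded operator: `(u_g ξ)(h) = ξ(g⁻¹ h)`,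
i.e. `u_g δ_h = δ_(g h)`. -/
def lreg {Γ : Type} [Group Γ] (g : Γ) : ell2 Γ →L[ℂ] ell2 Γ :=
  (relabel (Equiv.mulLeft g)).toContinuousLinearEquiv.toContinuousLinearMap

/-- The group von Neumann algebra `L(Γ)`: the double commutant of the left regular unitaries in
the bounded operators on `ℓ²(Γ)`. -/
def LG (Γ : Type) [Group Γ] : StarSubalgebra ℂ (ell2 Γ →L[ℂ] ell2 Γ) :=
  StarSubalgebra.centralizer ℂ
    (StarSubalgebra.centralizer ℂ (Set.range (lreg (Γ := Γ))) : Set (ell2 Γ →L[ℂ] ell2 Γ))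

theorem lreg_mem_LG {Γ : Type} [Group Γ] (g : Γ) : lreg g ∈ LG Γ := by
  rw [LG, StarSubalgebra.mem_centralizer_iff]
  intro x hx
  have h := (StarSubalgebra.mem_centralizer_iff ℂ).1 hx (lreg g) ⟨g, rfl⟩
  refine ⟨h.1.symm, ?_⟩
  have h2 := congrArg star h.2
  simpa only [star_mul, star_star] using h2

/-- The canonical unitary `u_g` as an element of `L(Γ)`. -/
def u {Γ : Type} [Group Γ] (g : Γ) : LG Γ := ⟨lreg g, lreg_mem_LG g⟩

/-- The canonical trace `τ(x) = ⟨x δ_e, δ_e⟩` of `L(Γ)` (Mathlib's inner product is linear in the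
second variable). -/
def tau {Γ : Type} [Group Γ] (x : LG Γ) : ℂ :=
  ⟪delta (1 : Γ), (x : ell2 Γ →L[ℂ] ell2 Γ) (delta 1)⟫_ℂ

/-- The Fourier coefficient of `x ∈ L(Γ)` at `g`, i.e. `τ(u_g^* x) = (x δ_e)(g)`. -/
def coef {Γ : Type} [Group Γ] (x : LG Γ) (g : Γ) : ℂ :=
  ((x : ell2 Γ →L[ℂ] ell2 Γ) (delta 1) : ell2 Γ) g

/-- `Γ` is ICC: every nontrivial conjugacy class is infinite. -/
def IsICC (Γ : Type) [Group Γ] : Prop := ∀ g : Γ, g ≠ 1 → {x : Γ | IsConj g x}.Infinite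

/-- Kazhdan's property (T) for a discrete group: there are a finite set `Q` and `ε > 0` such that
every unitary representation with a nonzero `(Q, ε)`-invariant vector has a nonzero invariant
vector. -/
def PropertyT (Γ : Type) [Group Γ] : Prop :=
  ∃ (Q : Finset Γ) (ε : ℝ), 0 < ε ∧
    ∀ (H : Type) [NormedAddCommGroup H] [InnerProductSpace ℂ H] [CompleteSpace H]
      (π : Γ →* unitary (H →L[ℂ] H)),
      (∃ ξ : H, ξ ≠ 0 ∧ ∀ g ∈ Q, ‖(π g : H →L[ℂ] H) ξ - ξ‖ < ε * ‖ξ‖) →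
        ∃ ξ : H, ξ ≠ 0 ∧ ∀ g : Γ, (π g : H →L[ℂ] H) ξ = ξ

/-- An isomorphism of `L(Λ)` with an amplification `L(Γ)^t = p (M_n(ℂ) ⊗ L(Γ)) p` of `L(Γ)`:
a projection `p` in `M_n(L(Γ))` and an injective `*`-homomorphism `L(Λ) → M_n(L(Γ))` whose
image is exactly the corner `p M_n(L(Γ)) p`. -/
structure AmpIso (Γ Λ : Type) [Group Γ] [Group Λ] (n : ℕ) where
  /-- the projection cutting down `M_n(L(Γ))` -/
  p : Matrix (Fin n) (Fin n) (LG Γ)
  isStarProjection : IsStarProjection p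
  /-- the isomorphism onto the corner, as a map into `M_n(L(Γ))` -/
  toHom : LG Λ →⋆ₙₐ[ℂ] Matrix (Fin n) (Fin n) (LG Γ)
  injective : Function.Injective toHom
  range_eq : Set.range toHom = {x | p * x * p = x}

namespace AmpIso

variable {Γ Λ : Type} [Group Γ] [Group Λ] {n : ℕ}

/-- The amplification parameter `t = (Tr ⊗ τ)(p)`. -/
def t (Φ : AmpIso Γ Λ n) : ℂ := ∑ i, tau (Φ.p i i)

/-- `Φ : L(Λ) ≅ L(Γ)^t` is canonical: `t = 1` and, after the identification of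
`p M_n(L(Γ)) p` with `L(Γ)` given by a column `w` over `L(Γ)` with `w^* w = 1`, `w w^* = p`, it
comes from a group isomorphism `δ : Γ ≃ Λ` and a character `χ` of `Γ`:
`Φ(v_{δ(g)}) = χ(g) w u_g w^*`. -/
def IsCanonical (Φ : AmpIso Γ Λ n) : Prop :=
  Φ.t = 1 ∧ ∃ (δ : Γ ≃* Λ) (χ : Γ →* Circle) (w : Matrix (Fin n) (Fin 1) (LG Γ)),
    w.conjTranspose * w = 1 ∧ w * w.conjTranspose = Φ.p ∧
    ∀ g : Γ, Φ.toHom (u (δ g)) =
      ((χ g : ℂ)) • (w * (Matrix.of fun _ _ => u g : Matrix (Fin 1) (Fin 1) (LG Γ)) *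
        w.conjTranspose)

/-- The fourth power sum of the Fourier coefficients at `g ∈ Γ` of all the unitaries
`Φ(v_s) ∈ M_n(L(Γ))`, `s ∈ Λ`:  `∑_s ∑_{i,j} |τ(u_g^* Φ(v_s)_{ij})|⁴`. For `n = 1`, `p = 1` this
is `∑_s |τ(θ(u_g)^* v_s)|⁴`, the fourth power sum of the coefficients of `θ(u_g)`,
`θ = Φ⁻¹`, in the canonical unitaries `v_s` of `L(Λ)`. -/
def fourth (Φ : AmpIso Γ Λ n) (g : Γ) : ℝ≥0∞ :=
  ∑' s : Λ, ∑ i, ∑ j, ‖coef (Φ.toHom (u s) i j) g‖ₑ ^ 4

end AmpIso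

/-- The average of `f` over the `k`-step products of elements of the finite set `S`: the
distribution of the random walk on `Γ` with step distribution uniform on `S`. -/
def walkAvg {Γ : Type} [Group Γ] (S : Finset Γ) (k : ℕ) (f : Γ → ℝ≥0∞) : ℝ≥0∞ :=
  (∑ w : Fin k → S, f (List.ofFn fun i => (w i : Γ)).prod) / (S.card : ℝ≥0∞) ^ k

end

end Vale.Agent.P092
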