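import Mathlib

/-!
# Parseval and Bessel families, square sums in `ℝ≥0∞`
-/

namespace Vale.Agent.P092

open scoped InnerProductSpace ENNReal ComplexConjugate
open ContinuousLinearMap

noncomputable section

variable {ι κ : Type} {H K : Type} [NormedAddCommGroup H] [InnerProductSpace ℂ H]
  [NormedAddCommGroup K] [InnerProductSpace ℂ K]

/-- A Parseval family: `∑ |⟨f k, v⟩|² = ‖v‖²` for all `v`. -/
def IsParseval (f : κ → H) : Prop := ∀ v : H, ∑' k, ‖⟪f k, v⟫_ℂ‖ₑ ^ 2 = ‖v‖ₑ ^ 2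

/-- A Bessel family with constant `1`: `∑ |⟨f k, v⟩|² ≤ ‖v‖²` for all `v`. -/
def IsBessel (f : κ → H) : Prop := ∀ v : H, ∑' k, ‖⟪f k, v⟫_ℂ‖ₑ ^ 2 ≤ ‖v‖ₑ ^ 2

theorem enorm_inner_symm (x y : H) : ‖⟪x, y⟫_ℂ‖ₑ = ‖⟪y, x⟫_ℂ‖ₑ := by
  rw [enorm_eq_nnnorm, enorm_eq_nnnorm]
  congr 1
  ext
  exact norm_inner_symm x y

theorem IsParseval.isBessel {f : κ → H} (hf : IsParseval f) : IsBessel f :=
  fun v => (hf v).le

theorem IsParseval.symm_apply {f : κ → H} (hf : IsParseval f) (v : H) :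
    ∑' k, ‖⟪v, f k⟫_ℂ‖ₑ ^ 2 = ‖v‖ₑ ^ 2 := by
  rw [← hf v]
  exact tsum_congr fun k => by rw [enorm_inner_symm]

theorem IsBessel.symm_apply {f : κ → H} (hf : IsBessel f) (v : H) :
    ∑' k, ‖⟪v, f k⟫_ℂ‖ₑ ^ 2 ≤ ‖v‖ₑ ^ 2 := by
  refine le_trans (le_of_eq ?_) (hf v)
  exact tsum_congr fun k => by rw [enorm_inner_symm]

/-- The norm of an element of `ℓ²(ι; G)` in terms of `ℝ≥0∞`-valued sums. -/
theorem lp_enorm_sq {G : ι → Type} [∀ i, NormedAddCommGroup (G i)] (f : lp G 2) :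
    ∑' i, ‖f i‖ₑ ^ 2 = ‖f‖ₑ ^ 2 := by
  have h1 : HasSum (fun i => ‖f i‖ ^ (2 : ℝ≥0∞).toReal) (‖f‖ ^ (2 : ℝ≥0∞).toReal) :=
    lp.hasSum_norm (by simp) f
  have h2 : HasSum (fun i => ‖f i‖ ^ 2) (‖f‖ ^ 2) := by simpa using h1
  have h3 : ∑' i, ENNReal.ofReal (‖f i‖ ^ 2) = ENNReal.ofReal (‖f‖ ^ 2) := by
    rw [← h2.tsum_eq, ENNReal.ofReal_tsum_of_nonneg (fun i => by positivity) h2.summable]
  simpa [ENNReal.ofReal_pow] using h3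

/-- Membership in `ℓ²` from finiteness of an `ℝ≥0∞`-valued sum. -/
theorem memℓp_two_of_tsum_ne_top {G : ι → Type} [∀ i, NormedAddCommGroup (G i)]
    {f : ∀ i, G i} (h : ∑' i, ‖f i‖ₑ ^ 2 ≠ ∞) : Memℓp f 2 := by
  rw [memℓp_gen_iff (by simp)]
  have : Summable fun i => ‖f i‖ ^ 2 := by
    have h2 : ∑' i, ((‖f i‖₊ ^ 2 : NNReal) : ℝ≥0∞) ≠ ∞ := by
      simpa [enorm_eq_nnnorm] using h
    have h3 := ENNReal.tsum_coe_ne_top_iff_summable.1 h2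
    simpa using NNReal.summable_coe.2 h3
  simpa using this

theorem parseval_hilbertBasis (b : HilbertBasis ι ℂ H) : IsParseval b := by
  intro v
  have h := lp_enorm_sq (b.repr v)
  rw [b.repr.enorm_map] at h
  rw [← h]
  exact tsum_congr fun i => by rw [b.repr_apply_apply]

section adjoint

variable [CompleteSpace H] [CompleteSpace K]

/-- Exchange of Parseval families: `∑ ‖A f_k‖² = ∑ ‖A† g_i‖²`. -/
theorem parseval_exchange {f : κ → H} {g : ι → K} (hf : IsParseval f) (hg : IsParseval g)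
    (A : H →L[ℂ] K) : ∑' k, ‖A (f k)‖ₑ ^ 2 = ∑' i, ‖adjoint A (g i)‖ₑ ^ 2 := by
  calc ∑' k, ‖A (f k)‖ₑ ^ 2 = ∑' k, ∑' i, ‖⟪g i, A (f k)⟫_ℂ‖ₑ ^ 2 :=
        tsum_congr fun k => (hg _).symm
    _ = ∑' i, ∑' k, ‖⟪g i, A (f k)⟫_ℂ‖ₑ ^ 2 := ENNReal.tsum_comm
    _ = ∑' i, ∑' k, ‖⟪adjoint A (g i), f k⟫_ℂ‖ₑ ^ 2 := by
        simp_rw [adjoint_inner_left]
    _ = ∑' i, ‖adjoint A (g i)‖ₑ ^ 2 := tsum_congr fun i => hf.symm_apply _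

theorem bessel_exchange_le {f : κ → H} {g : ι → K} (hf : IsBessel f) (hg : IsParseval g)
    (A : H →L[ℂ] K) : ∑' k, ‖A (f k)‖ₑ ^ 2 ≤ ∑' i, ‖adjoint A (g i)‖ₑ ^ 2 := by
  calc ∑' k, ‖A (f k)‖ₑ ^ 2 = ∑' k, ∑' i, ‖⟪g i, A (f k)⟫_ℂ‖ₑ ^ 2 :=
        tsum_congr fun k => (hg _).symm
    _ = ∑' i, ∑' k, ‖⟪g i, A (f k)⟫_ℂ‖ₑ ^ 2 := ENNReal.tsum_comm
    _ = ∑' i, ∑' k, ‖⟪adjoint A (g i), f k⟫_ℂ‖ₑ ^ 2 := by
        simp_rw [adjoint_inner_left]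
    _ ≤ ∑' i, ‖adjoint A (g i)‖ₑ ^ 2 := ENNReal.tsum_le_tsum fun i => hf.symm_apply _

/-- The Hilbert–Schmidt sum does not depend on the Parseval family. -/
theorem parseval_indep {f : κ → H} {g : ι → H} (hf : IsParseval f) (hg : IsParseval g)
    (A : H →L[ℂ] K) : ∑' k, ‖A (f k)‖ₑ ^ 2 = ∑' i, ‖A (g i)‖ₑ ^ 2 := by
  obtain ⟨w, c, -⟩ := exists_hilbertBasis ℂ K
  rw [parseval_exchange hf (parseval_hilbertBasis c), parseval_exchange hg (parseval_hilbertBasis c)]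

end adjoint

end

end Vale.Agent.P092
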