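import Vale.Agent.P092.Frame

/-!
# Hilbert–Schmidt operators

`HS ι H = ℓ²(ι; H)` is the space of Hilbert–Schmidt operators on `H`, an element `Z` being
identified, through a Hilbert basis `b` of `H`, with the operator `op b Z` with
`op b Z (b i) = Z i`.
-/

namespace Vale.Agent.P092

open scoped InnerProductSpace ENNReal ComplexConjugate
open ContinuousLinearMap InnerProductSpace

noncomputable section

variable {ι κ : Type} {H : Type} [NormedAddCommGroup H] [InnerProductSpace ℂ H]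

/-- Hilbert–Schmidt operators on `H`, in coordinates. -/
abbrev HS (ι : Type) (H : Type) [NormedAddCommGroup H] : Type := lp (fun _ : ι => H) 2

omit [InnerProductSpace ℂ H] in
theorem lp_mul_aux (a : lp (fun _ : ι => ℂ) 2) (Z : HS ι H) :
    (Summable fun i => ‖a i‖ * ‖Z i‖) ∧ ∑' i, ‖a i‖ * ‖Z i‖ ≤ ‖a‖ * ‖Z‖ := by
  have hp : (2 : ℝ≥0∞).toReal.HolderConjugate (2 : ℝ≥0∞).toReal := by
    rw [Real.holderConjugate_iff]; norm_num
  have h1 := lp.summable_mul hp (lp.toNorm a) (lp.toNorm Z)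
  have h2 := lp.tsum_mul_le_mul_norm' hp (lp.toNorm a) (lp.toNorm Z)
  simp only [lp.toNorm_coe, norm_norm] at h1 h2
  rw [lp.norm_toNorm, lp.norm_toNorm] at h2
  exact ⟨h1, h2⟩

theorem lp_summable_smul (a : lp (fun _ : ι => ℂ) 2) [CompleteSpace H] (Z : HS ι H) :
    Summable fun i => a i • Z i := by
  refine .of_norm_bounded (lp_mul_aux a Z).1 ?_
  intro i
  rw [norm_smul]

theorem lp_norm_tsum_smul_le (a : lp (fun _ : ι => ℂ) 2) (Z : HS ι H) :
    ‖∑' i, a i • Z i‖ ≤ ‖Z‖ * ‖a‖ := by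
  calc ‖∑' i, a i • Z i‖ ≤ ∑' i, ‖a i • Z i‖ := by
        refine norm_tsum_le_tsum_norm ?_
        simpa [norm_smul] using (lp_mul_aux a Z).1
    _ = ∑' i, ‖a i‖ * ‖Z i‖ := by simp_rw [norm_smul]
    _ ≤ ‖a‖ * ‖Z‖ := (lp_mul_aux a Z).2
    _ = ‖Z‖ * ‖a‖ := mul_comm _ _

variable [CompleteSpace H] (b : HilbertBasis ι ℂ H)

/-- The operator attached to an element of `HS ι H`: `op b Z v = ∑ ⟨b i, v⟩ Z i`. -/
def op : HS ι H →L[ℂ] H →L[ℂ] H :=
  LinearMap.mkContinuous₂
    (LinearMap.mk₂ ℂ (fun Z v => ∑' i, b.repr v i • Z i)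
      (fun Z Z' v => by
        simp only [lp.coeFn_add, Pi.add_apply, smul_add]
        exact (lp_summable_smul _ Z).tsum_add (lp_summable_smul _ Z'))
      (fun c Z v => by
        simp only [lp.coeFn_smul, Pi.smul_apply, smul_comm _ c]
        exact (lp_summable_smul _ Z).tsum_const_smul c)
      (fun Z v w => by
        simp only [map_add, lp.coeFn_add, Pi.add_apply, add_smul]
        exact (lp_summable_smul _ Z).tsum_add (lp_summable_smul _ Z))
      (fun c Z v => by
        simp only [map_smul, lp.coeFn_smul, Pi.smul_apply, smul_assoc]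
        exact (lp_summable_smul _ Z).tsum_const_smul c))
    1 (fun Z v => by
      simp only [LinearMap.mk₂_apply, one_mul]
      refine (lp_norm_tsum_smul_le (b.repr v) Z).trans (le_of_eq ?_)
      rw [b.repr.norm_map])

theorem op_apply (Z : HS ι H) (v : H) : op b Z v = ∑' i, b.repr v i • Z i := rfl

@[simp]
theorem op_basis (Z : HS ι H) (i : ι) : op b Z (b i) = Z i := by
  classical
  rw [op_apply, b.repr_self]
  rw [tsum_eq_single i]
  · simp
  · intro j hj
    simp [lp.single_apply, hj]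

theorem norm_op_le (Z : HS ι H) : ‖op b Z‖ ≤ ‖Z‖ := by
  have h := (op b).le_opNorm Z
  have h1 : ‖op b‖ ≤ 1 := LinearMap.mkContinuous₂_norm_le _ zero_le_one _
  calc ‖op b Z‖ ≤ ‖op b‖ * ‖Z‖ := h
    _ ≤ 1 * ‖Z‖ := by gcongr
    _ = ‖Z‖ := one_mul _

omit [CompleteSpace H] in
theorem clm_ext_basis {K : Type} [NormedAddCommGroup K] [NormedSpace ℂ K]
    {A B : H →L[ℂ] K} (h : ∀ i, A (b i) = B (b i)) : A = B := by
  refine ContinuousLinearMap.ext_on (s := Set.range b) ?_ ?_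
  · exact Submodule.dense_iff_topologicalClosure_eq_top.2 b.dense_span
  · rintro _ ⟨i, rfl⟩
    exact h i

theorem op_injective : Function.Injective (op b) := by
  intro Z Z' h
  ext i
  rw [← op_basis b Z i, ← op_basis b Z' i, h]

/-- The element of `HS ι H` given by a bounded operator with finite Hilbert–Schmidt norm. -/
def ofOp (A : H →L[ℂ] H) (hA : ∑' i, ‖A (b i)‖ₑ ^ 2 ≠ ∞) : HS ι H :=
  ⟨fun i => A (b i), memℓp_two_of_tsum_ne_top hA⟩

@[simp]
theorem op_ofOp (A : H →L[ℂ] H) (hA : ∑' i, ‖A (b i)‖ₑ ^ 2 ≠ ∞) : op b (ofOp b A hA) = A := by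
  refine clm_ext_basis b fun i => ?_
  rw [op_basis]
  rfl

theorem enorm_sq_eq_tsum_op (Z : HS ι H) {f : κ → H} (hf : IsParseval f) :
    ∑' k, ‖op b Z (f k)‖ₑ ^ 2 = ‖Z‖ₑ ^ 2 := by
  rw [parseval_indep hf (parseval_hilbertBasis b) (op b Z), ← lp_enorm_sq Z]
  simp_rw [op_basis]

theorem enorm_sq_eq_tsum_adjoint (Z : HS ι H) {f : κ → H} (hf : IsParseval f) :
    ∑' k, ‖adjoint (op b Z) (f k)‖ₑ ^ 2 = ‖Z‖ₑ ^ 2 := by
  rw [← enorm_sq_eq_tsum_op b Z (parseval_hilbertBasis b),
    parseval_exchange (parseval_hilbertBasis b) hf (op b Z)]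

omit [CompleteSpace H] [InnerProductSpace ℂ H] in
theorem norm_le_of_enorm_sq_le {E : Type} [SeminormedAddCommGroup E] {x : E} {r : ℝ}
    (hr : 0 ≤ r) (h : ‖x‖ₑ ^ 2 ≤ ENNReal.ofReal r ^ 2) : ‖x‖ ≤ r := by
  have h2 : ‖x‖ₑ ≤ ENNReal.ofReal r := by
    by_contra hlt
    exact absurd h (not_le.2 (ENNReal.pow_lt_pow_left two_ne_zero (not_le.1 hlt)))
  rw [← ofReal_norm] at h2
  exact (ENNReal.ofReal_le_ofReal_iff hr).1 h2

/-- Left multiplication by a bounded operator. -/
def lmul (A : H →L[ℂ] H) : HS ι H →L[ℂ] HS ι H :=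
  LinearMap.mkContinuous
    { toFun := fun Z => ⟨fun i => A (Z i), by
        refine memℓp_two_of_tsum_ne_top ?_
        refine ne_top_of_le_ne_top (b := ‖A‖ₑ ^ 2 * ‖Z‖ₑ ^ 2) (by finiteness) ?_
        rw [← lp_enorm_sq Z, ← ENNReal.tsum_mul_left]
        refine ENNReal.tsum_le_tsum fun i => ?_
        rw [← mul_pow]
        gcongr
        exact A.le_opENorm _⟩
      map_add' := fun Z Z' => by ext i; exact A.map_add _ _
      map_smul' := fun c Z => by ext i; exact A.map_smul _ _ } ‖A‖ (fun Z => by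
        refine norm_le_of_enorm_sq_le (by positivity) ?_
        rw [ENNReal.ofReal_mul (by positivity), ofReal_norm, ofReal_norm,
          mul_pow, ← lp_enorm_sq Z, ← lp_enorm_sq, ← ENNReal.tsum_mul_left]
        refine ENNReal.tsum_le_tsum fun i => ?_
        rw [← mul_pow]
        gcongr
        exact A.le_opENorm _)

omit [CompleteSpace H] in
@[simp]
theorem lmul_apply (A : H →L[ℂ] H) (Z : HS ι H) (i : ι) : lmul A Z i = A (Z i) := rfl

omit [CompleteSpace H] in
theorem norm_lmul_le (A : H →L[ℂ] H) : ‖lmul (ι := ι) A‖ ≤ ‖A‖ :=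
  LinearMap.mkContinuous_norm_le _ (norm_nonneg _) _

@[simp]
theorem op_lmul (A : H →L[ℂ] H) (Z : HS ι H) : op b (lmul A Z) = A ∘L op b Z := by
  refine clm_ext_basis b fun i => ?_
  simp

/-- The adjoint, as a map of `HS ι H`. -/
def adjFun (Z : HS ι H) : HS ι H :=
  ofOp b (adjoint (op b Z)) (by
    rw [enorm_sq_eq_tsum_adjoint b Z (parseval_hilbertBasis b)]
    finiteness)

@[simp]
theorem op_adjFun (Z : HS ι H) : op b (adjFun b Z) = adjoint (op b Z) := op_ofOp _ _ _

theorem adjFun_adjFun (Z : HS ι H) : adjFun b (adjFun b Z) = Z := by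
  apply op_injective b
  simp

theorem norm_adjFun (Z : HS ι H) : ‖adjFun b Z‖ = ‖Z‖ := by
  have h : ‖adjFun b Z‖ₑ ^ 2 = ‖Z‖ₑ ^ 2 := by
    rw [← enorm_sq_eq_tsum_adjoint b Z (parseval_hilbertBasis b),
      ← enorm_sq_eq_tsum_op b (adjFun b Z) (parseval_hilbertBasis b), op_adjFun]
  apply le_antisymm
  · refine norm_le_of_enorm_sq_le (norm_nonneg _) ?_
    rw [ofReal_norm, h]
  · refine norm_le_of_enorm_sq_le (norm_nonneg _) ?_
    rw [ofReal_norm, h]

/-- The adjoint `Z ↦ Z^*` as a conjugate-linear isometry of `HS ι H`. -/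
def adj : HS ι H ≃ₗᵢ⋆[ℂ] HS ι H where
  toFun := adjFun b
  invFun := adjFun b
  map_add' Z Z' := by
    apply op_injective b
    simp
  map_smul' c Z := by
    apply op_injective b
    simp [map_smulₛₗ]
  left_inv := adjFun_adjFun b
  right_inv := adjFun_adjFun b
  norm_map' := norm_adjFun b

@[simp]
theorem op_adj (Z : HS ι H) : op b (adj b Z) = adjoint (op b Z) := op_adjFun b Z

@[simp]
theorem adj_adj (Z : HS ι H) : adj b (adj b Z) = Z := adjFun_adjFun b Z

/-- Right multiplication by a bounded operator. -/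
def rmul (A : H →L[ℂ] H) : HS ι H →L[ℂ] HS ι H :=
  LinearMap.mkContinuous
    { toFun := fun Z => adj b (lmul (adjoint A) (adj b Z))
      map_add' := fun Z Z' => by simp
      map_smul' := fun c Z => by simp [map_smulₛₗ] } ‖A‖ (fun Z => by
        simp only [LinearMap.coe_mk, AddHom.coe_mk, LinearIsometryEquiv.norm_map]
        refine (lmul (adjoint A)).le_opNorm _ |>.trans ?_
        rw [LinearIsometryEquiv.norm_map]
        gcongr
        refine (norm_lmul_le _).trans (le_of_eq ?_)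
        exact LinearIsometryEquiv.norm_map _ _)

theorem rmul_eq (A : H →L[ℂ] H) (Z : HS ι H) :
    rmul b A Z = adj b (lmul (adjoint A) (adj b Z)) := rfl

@[simp]
theorem op_rmul (A : H →L[ℂ] H) (Z : HS ι H) : op b (rmul b A Z) = op b Z ∘L A := by
  rw [rmul_eq, op_adj, op_lmul, op_adj, adjoint_comp, adjoint_adjoint, adjoint_adjoint]

theorem norm_rmul_le (A : H →L[ℂ] H) : ‖rmul b A‖ ≤ ‖A‖ :=
  LinearMap.mkContinuous_norm_le _ (norm_nonneg _) _

/-- The rank one operator `|v⟩⟨w|`, `x ↦ ⟨w, x⟩ v`. -/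
def ten (v w : H) : HS ι H :=
  ofOp b (rankOne ℂ v w) (by
    have h : ∀ i, ‖rankOne ℂ v w (b i)‖ₑ ^ 2 = ‖v‖ₑ ^ 2 * ‖⟪w, b i⟫_ℂ‖ₑ ^ 2 := fun i => by
      rw [rankOne_apply, enorm_smul, mul_pow, mul_comm]
    simp_rw [h]
    rw [ENNReal.tsum_mul_left, (parseval_hilbertBasis b).symm_apply]
    finiteness)

@[simp]
theorem op_ten (v w : H) : op b (ten b v w) = rankOne ℂ v w := op_ofOp _ _ _

theorem ten_apply (v w : H) (i : ι) : ten b v w i = ⟪w, b i⟫_ℂ • v := by
  rw [← op_basis b (ten b v w) i, op_ten, rankOne_apply]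

theorem inner_ten_left (v w : H) (Z : HS ι H) : ⟪ten b v w, Z⟫_ℂ = ⟪v, op b Z w⟫_ℂ := by
  have h : HasSum (fun i => ⟪v, b.repr w i • Z i⟫_ℂ) ⟪v, op b Z w⟫_ℂ :=
    (lp_summable_smul (b.repr w) Z).hasSum.mapL (innerSL ℂ v)
  rw [lp.inner_eq_tsum, ← h.tsum_eq]
  refine tsum_congr fun i => ?_
  rw [ten_apply, inner_smul_left, inner_smul_right, b.repr_apply_apply, inner_conj_symm]

theorem inner_ten_right (v w : H) (Z : HS ι H) : ⟪Z, ten b v w⟫_ℂ = ⟪op b Z w, v⟫_ℂ := by
  rw [← inner_conj_symm, inner_ten_left, inner_conj_symm]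

theorem inner_ten_ten (v w v' w' : H) :
    ⟪ten b v w, ten b v' w'⟫_ℂ = ⟪v, v'⟫_ℂ * ⟪w', w⟫_ℂ := by
  rw [inner_ten_left, op_ten, rankOne_apply, inner_smul_right, mul_comm]

theorem norm_ten (v w : H) : ‖ten b v w‖ = ‖v‖ * ‖w‖ := by
  have h : ⟪ten b v w, ten b v w⟫_ℂ = ((‖v‖ ^ 2 * ‖w‖ ^ 2 : ℝ) : ℂ) := by
    rw [inner_ten_ten, inner_self_eq_norm_sq_to_K (𝕜 := ℂ), inner_self_eq_norm_sq_to_K (𝕜 := ℂ)]
    simp
  have h2 : ‖ten b v w‖ ^ 2 = (‖v‖ * ‖w‖) ^ 2 := by
    rw [norm_sq_eq_re_inner (𝕜 := ℂ), h, mul_pow]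
    exact Complex.ofReal_re _
  exact (sq_eq_sq₀ (norm_nonneg _) (by positivity)).1 h2

theorem lmul_ten (A : H →L[ℂ] H) (v w : H) : lmul A (ten b v w) = ten b (A v) w := by
  apply op_injective b
  ext x
  simp

theorem rmul_ten (A : H →L[ℂ] H) (v w : H) :
    rmul b A (ten b v w) = ten b v (adjoint A w) := by
  apply op_injective b
  ext x
  simp [adjoint_inner_left]

theorem adj_ten (v w : H) : adj b (ten b v w) = ten b w v := by
  apply op_injective b
  simp

theorem ten_add_left (v v' w : H) : ten b (v + v') w = ten b v w + ten b v' w := by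
  apply op_injective b
  simp

theorem ten_smul_left (c : ℂ) (v w : H) : ten b (c • v) w = c • ten b v w := by
  apply op_injective b
  simp

theorem ten_add_right (v w w' : H) : ten b v (w + w') = ten b v w + ten b v w' := by
  apply op_injective b
  simp

theorem ten_smul_right (c : ℂ) (v w : H) : ten b v (c • w) = conj c • ten b v w := by
  apply op_injective b
  simp [map_smulₛₗ]

/-- `v ↦ |v⟩⟨w|` as a continuous linear map. -/
def tenL (w : H) : H →L[ℂ] HS ι H :=
  LinearMap.mkContinuous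
    { toFun := fun v => ten b v w
      map_add' := fun v v' => ten_add_left b v v' w
      map_smul' := fun c v => ten_smul_left b c v w } ‖w‖ (fun v => by
        simp only [LinearMap.coe_mk, AddHom.coe_mk, norm_ten]
        rw [mul_comm])

@[simp]
theorem tenL_apply (v w : H) : tenL b w v = ten b v w := rfl

theorem eq_zero_of_inner_ten (Z : HS ι H) (h : ∀ v w, ⟪ten b v w, Z⟫_ℂ = 0) : Z = 0 := by
  apply op_injective b
  ext w
  rw [map_zero]
  refine ext_inner_left ℂ fun v => ?_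
  rw [← inner_ten_left, h]
  simp

theorem dense_span_ten :
    (Submodule.span ℂ (Set.range fun p : H × H => ten b p.1 p.2)).topologicalClosure = ⊤ := by
  rw [Submodule.topologicalClosure_eq_top_iff, Submodule.eq_bot_iff]
  intro Z hZ
  refine eq_zero_of_inner_ten b Z fun v w => ?_
  exact (Submodule.mem_orthogonal _ _).1 hZ _ (Submodule.subset_span ⟨(v, w), rfl⟩)

/-- Two bounded operators on `HS ι H` agreeing on rank one operators are equal. -/
theorem clm_ext_ten {K : Type} [NormedAddCommGroup K] [NormedSpace ℂ K]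
    {A B : HS ι H →L[ℂ] K} (h : ∀ v w, A (ten b v w) = B (ten b v w)) : A = B := by
  refine ContinuousLinearMap.ext_on
    (Submodule.dense_iff_topologicalClosure_eq_top.2 (dense_span_ten b)) ?_
  rintro _ ⟨⟨v, w⟩, rfl⟩
  exact h v w

/-- If `x ↦ ⟪ten v w, A (ten v' w')⟫` agree for all rank one operators then `A = B`. -/
theorem clm_ext_inner_ten {A B : HS ι H →L[ℂ] HS ι H}
    (h : ∀ v w v' w', ⟪ten b v w, A (ten b v' w')⟫_ℂ = ⟪ten b v w, B (ten b v' w')⟫_ℂ) :
    A = B := by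
  refine clm_ext_ten b fun v' w' => ?_
  rw [← sub_eq_zero]
  refine eq_zero_of_inner_ten b _ fun v w => ?_
  rw [inner_sub_right, h, sub_self]

/-- `s_A(v) = ∑_l ‖A |v⟩⟨f_l|‖²` does not depend on the Parseval family `f`. -/
theorem tsum_ten_indep {κ' : Type} (A : HS ι H →L[ℂ] HS ι H) {f : κ → H} {f' : κ' → H}
    (hf : IsParseval f) (hf' : IsParseval f') (v : H) :
    ∑' l, ‖A (ten b v (f l))‖ₑ ^ 2 = ∑' l, ‖A (ten b v (f' l))‖ₑ ^ 2 := by
  obtain ⟨w, c, -⟩ := exists_hilbertBasis ℂ (HS ι H)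
  have key : ∀ {κ'' : Type} {f'' : κ'' → H}, IsParseval f'' →
      ∑' l, ‖A (ten b v (f'' l))‖ₑ ^ 2
        = ∑' m, ‖adjoint (op b (adjoint A (c m))) v‖ₑ ^ 2 := by
    intro κ'' f'' hf''
    calc ∑' l, ‖A (ten b v (f'' l))‖ₑ ^ 2
        = ∑' l, ∑' m, ‖⟪c m, A (ten b v (f'' l))⟫_ℂ‖ₑ ^ 2 :=
          tsum_congr fun l => (parseval_hilbertBasis c _).symm
      _ = ∑' m, ∑' l, ‖⟪c m, A (ten b v (f'' l))⟫_ℂ‖ₑ ^ 2 := ENNReal.tsum_comm
      _ = ∑' m, ∑' l, ‖⟪f'' l, adjoint (op b (adjoint A (c m))) v⟫_ℂ‖ₑ ^ 2 := by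
          refine tsum_congr fun m => tsum_congr fun l => ?_
          rw [← adjoint_inner_left, inner_ten_right, enorm_inner_symm (f'' l),
            adjoint_inner_left, enorm_inner_symm]
      _ = ∑' m, ‖adjoint (op b (adjoint A (c m))) v‖ₑ ^ 2 :=
          tsum_congr fun m => hf'' _
  rw [key hf, key hf']

omit [CompleteSpace H] in
theorem isCompactOperator_rankOne (v w : H) : IsCompactOperator (rankOne ℂ v w : H →L[ℂ] H) := by
  rw [rankOne_def']
  exact (isCompactOperator_of_locallyCompactSpace_rng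
    (ContinuousLinearMap.toSpanSingleton ℂ v)).comp_clm (innerSL ℂ w)

/-- Hilbert–Schmidt operators are compact. -/
theorem isCompactOperator_op (Z : HS ι H) : IsCompactOperator (op b Z) := by
  classical
  have h1 : HasSum (fun i => lp.single 2 i (Z i)) Z := lp.hasSum_single ENNReal.ofNat_ne_top Z
  have h2 := h1.mapL (op b)
  refine isCompactOperator_of_tendsto h2 (Filter.Eventually.of_forall fun s => ?_)
  have h3 : ∀ i, op b (lp.single 2 i (Z i)) = rankOne ℂ (Z i) (b i) := by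
    intro i
    refine clm_ext_basis b fun j => ?_
    rw [op_basis, rankOne_apply, orthonormal_iff_ite.mp b.orthonormal i j, lp.single_apply]
    by_cases hij : i = j
    · subst hij; simp
    · have hji : ¬ j = i := fun h => hij h.symm
      simp [hij, hji]
  simp only [h3]
  have h4 : (∑ i ∈ s, rankOne ℂ (Z i) (b i) : H →L[ℂ] H) ∈
      compactOperator (RingHom.id ℂ) H H :=
    Submodule.sum_mem _ fun i _ => isCompactOperator_rankOne (Z i) (b i)
  exact h4

end

end Vale.Agent.P092
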