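import Vale.Agent.P092.HS

/-!
# The abstract setting

Two commuting unitary representations `U` of `Γ` and `V` of `Λ` on a Hilbert space `H`, and
operators on the space `HS ι H` of Hilbert–Schmidt operators on `H`.
-/

namespace Vale.Agent.P092

open scoped InnerProductSpace ENNReal ComplexConjugate
open ContinuousLinearMap InnerProductSpace

noncomputable section

variable {ι κ : Type} {H : Type} [NormedAddCommGroup H] [InnerProductSpace ℂ H] [CompleteSpace H]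
  (b : HilbertBasis ι ℂ H)

/-- `Ad W : Z ↦ W Z W^*` on Hilbert–Schmidt operators. -/
def Ad (W : H →L[ℂ] H) : HS ι H →L[ℂ] HS ι H := lmul W ∘L rmul b (adjoint W)

@[simp]
theorem op_Ad (W : H →L[ℂ] H) (Z : HS ι H) : op b (Ad b W Z) = W ∘L op b Z ∘L adjoint W := by
  simp [Ad]

theorem Ad_ten (W : H →L[ℂ] H) (v w : H) : Ad b W (ten b v w) = ten b (W v) (W w) := by
  apply op_injective b
  ext x
  simp [adjoint_inner_right]

theorem Ad_one : Ad b (1 : H →L[ℂ] H) = 1 := by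
  refine clm_ext_ten b fun v w => ?_
  rw [Ad_ten]
  rfl

theorem Ad_mul (W W' : H →L[ℂ] H) : Ad b (W * W') = Ad b W * Ad b W' := by
  refine clm_ext_ten b fun v w => ?_
  rw [ContinuousLinearMap.mul_def (Ad b W), comp_apply, Ad_ten, Ad_ten, Ad_ten]
  rfl

include b in
theorem adjoint_lmul (A : H →L[ℂ] H) : adjoint (lmul (ι := ι) A) = lmul (adjoint A) := by
  refine clm_ext_inner_ten b fun v w v' w' => ?_
  rw [adjoint_inner_right, lmul_ten, lmul_ten, inner_ten_ten, inner_ten_ten, adjoint_inner_right]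

theorem adjoint_rmul (A : H →L[ℂ] H) : adjoint (rmul b A) = rmul b (adjoint A) := by
  refine clm_ext_inner_ten b fun v w v' w' => ?_
  rw [adjoint_inner_right, rmul_ten, rmul_ten, inner_ten_ten, inner_ten_ten, adjoint_adjoint,
    adjoint_inner_right]

theorem adjoint_Ad (W : H →L[ℂ] H) : adjoint (Ad b W) = Ad b (adjoint W) := by
  refine clm_ext_inner_ten b fun v w v' w' => ?_
  rw [adjoint_inner_right, Ad_ten, Ad_ten, inner_ten_ten, inner_ten_ten, adjoint_inner_right,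
    adjoint_inner_left]

theorem rmul_mul (A B : H →L[ℂ] H) : rmul b (A * B) = rmul b B * rmul b A := by
  refine ContinuousLinearMap.ext fun Z => op_injective b ?_
  rw [ContinuousLinearMap.mul_def (rmul b B), comp_apply]
  simp only [op_rmul]
  rfl

theorem rmul_one : rmul b (1 : H →L[ℂ] H) = 1 := by
  refine ContinuousLinearMap.ext fun Z => op_injective b ?_
  simp only [op_rmul]
  rfl

/-- The quadratic form `re ⟨Z, T Z⟩` of an operator, as an extended nonnegative real (it is only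
used for positive operators). -/
def quad {K : Type} [NormedAddCommGroup K] [InnerProductSpace ℂ K] (T : K →L[ℂ] K) (Z : K) :
    ℝ≥0∞ := ENNReal.ofReal (RCLike.re ⟪Z, T Z⟫_ℂ)

variable {Γ Λ : Type} [Group Γ] [Group Λ]
  (U : Γ →* unitary (H →L[ℂ] H)) (V : Λ →* unitary (H →L[ℂ] H))

/-- Irreducibility of `HS ι H` under left and right multiplication by `V(Λ)` and `Ad U(Γ)`. -/
def Irr : Prop :=
  ∀ F : HS ι H →L[ℂ] HS ι H,
    (∀ s : Λ, Commute (lmul (V s : H →L[ℂ] H)) F) →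
    (∀ s : Λ, Commute (rmul b (V s : H →L[ℂ] H)) F) →
    (∀ g : Γ, Commute (Ad b (U g : H →L[ℂ] H)) F) → ∃ c : ℂ, F = c • 1

/-- The properties of the operator `T` obtained in Step 1 (averaging). -/
structure GoodOp (T : HS ι H →L[ℂ] HS ι H) : Prop where
  pos : T.IsPositive
  le_one : (1 - T).IsPositive
  symm : ∀ v w v' w' : H,
    ⟪ten b v' w', T (ten b v w)⟫_ℂ = ⟪ten b w w', T (ten b v v')⟫_ℂ
  commU : ∀ g : Γ, Commute (Ad b (U g : H →L[ℂ] H)) T
  commV : ∀ s : Λ, Commute (Ad b (V s : H →L[ℂ] H)) T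
  fbound : ∀ Z : HS ι H, ∑' k : Λ, quad T (rmul b (V k : H →L[ℂ] H) Z) ≤ ‖Z‖ₑ ^ 2
  pbound : ∀ v : H, ∑' l : ι, quad T (ten b v (b l)) ≤ ‖v‖ₑ ^ 2
  ne_zero : T ≠ 0

/-- The properties of the projection `E` obtained in Steps 2–4. -/
structure GoodProj (E : HS ι H →L[ℂ] HS ι H) : Prop where
  idem : E * E = E
  selfAdjoint : adjoint E = E
  symm : ∀ v w v' w' : H,
    ⟪ten b v' w', E (ten b v w)⟫_ℂ = ⟪ten b w w', E (ten b v v')⟫_ℂ
  commU : ∀ g : Γ, Commute (Ad b (U g : H →L[ℂ] H)) E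
  commV : ∀ s : Λ, Commute (Ad b (V s : H →L[ℂ] H)) E
  mal : ∀ k : Λ, k ≠ 1 → E * rmul b (V k : H →L[ℂ] H) * E = 0
  full : ∃ c : ℝ≥0∞, c ≠ 0 ∧ c ≠ ∞ ∧
    ∀ Z : HS ι H, ∑' k : Λ, ‖E (rmul b (V k : H →L[ℂ] H) Z)‖ₑ ^ 2 = c * ‖Z‖ₑ ^ 2
  part : ∃ c : ℝ≥0∞, c ≠ 0 ∧ c ≠ ∞ ∧
    ∀ v : H, ∑' l : ι, ‖E (ten b v (b l))‖ₑ ^ 2 = c * ‖v‖ₑ ^ 2
  ne_zero : E ≠ 0

/-- The conclusion of the abstract theorem: a unit vector `z` such that `(V_s z)` is a Hilbert
basis of `H` and every `U_g z` is a scalar multiple of some `V_s z`. -/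
def Concl : Prop :=
  ∃ z : H, ‖z‖ = 1 ∧
    (∀ s : Λ, s ≠ 1 → ⟪z, (V s : H →L[ℂ] H) z⟫_ℂ = 0) ∧
    (∀ v : H, (∀ s : Λ, ⟪(V s : H →L[ℂ] H) z, v⟫_ℂ = 0) → v = 0) ∧
    ∀ g : Γ, ∃ (s : Λ) (c : ℂ), (U g : H →L[ℂ] H) z = c • (V s : H →L[ℂ] H) z

end

end Vale.Agent.P092
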