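import Mathlib

/-!
# P092: the definitions used by the statements handed in

Group von Neumann algebras, amplifications, canonical isomorphisms, property (T).
-/

namespace Vale.Agent.P092.Stmt

open scoped InnerProductSpace ENNReal

noncomputable section

/-- The complex Hilbert space `ℓ²(Γ)`. -/
def Hil (Γ : Type) : Type := lp (fun _ : Γ => ℂ) 2

instance Hil.normedAddCommGroup (Γ : Type) : NormedAddCommGroup (Hil Γ) :=
  @lp.normedAddCommGroup Γ (fun _ => ℂ) 2 _ _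

instance Hil.innerProductSpace (Γ : Type) : InnerProductSpace ℂ (Hil Γ) :=
  @lp.instInnerProductSpace Γ ℂ _ (fun _ => ℂ) _ _

instance Hil.completeSpace (Γ : Type) : CompleteSpace (Hil Γ) :=
  @lp.completeSpace Γ (fun _ => ℂ) 2 _ _ _

/-- The value `ξ(x)` of `ξ ∈ ℓ²(Γ)` at `x ∈ Γ`. -/
def Hil.coord {Γ : Type} : Hil Γ → Γ → ℂ := fun (ξ : lp (fun _ : Γ => ℂ) 2) (x : Γ) => ξ x

/-- The algebra of all bounded operators on `ℓ²(Γ)`. -/
def B (Γ : Type) : Type := Hil Γ →L[ℂ] Hil Γ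

instance B.ring (Γ : Type) : Ring (B Γ) := @ContinuousLinearMap.ring ℂ _ (Hil Γ) _ _ _ _

instance B.module (Γ : Type) : Module ℂ (B Γ) :=
  @ContinuousLinearMap.module ℂ ℂ ℂ _ _ _ (Hil Γ) _ _ _ (Hil Γ) _ _ _ _ _ _ _ _

/-- The adjoint of a bounded operator. -/
instance B.star (Γ : Type) : Star (B Γ) := @ContinuousLinearMap.instStarId ℂ (Hil Γ) _ _ _ _

/-- The value `x ξ` of the operator `x` at the vector `ξ`. -/
def B.app {Γ : Type} : B Γ → Hil Γ → Hil Γ := fun (x : Hil Γ →L[ℂ] Hil Γ) (ξ : Hil Γ) => x ξ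

/-- The unit vector `δ_g` of `ℓ²(Γ)`. -/
def delta {Γ : Type} (g : Γ) : Hil Γ :=
  letI := Classical.decEq Γ
  (lp.single 2 g (1 : ℂ) : lp (fun _ : Γ => ℂ) 2)

section

variable {Γ : Type} [Group Γ]

omit [Group Γ] in
theorem memlp_coord (ξ : Hil Γ) : Memℓp ξ.coord 2 :=
  lp.memℓp (show lp (fun _ : Γ => ℂ) 2 from ξ)

theorem memlp_shift (g : Γ) (ξ : Hil Γ) : Memℓp (fun x : Γ => ξ.coord (g⁻¹ * x)) 2 :=
  (memℓp_gen_iff (by simp)).2
    (((Equiv.mulLeft g⁻¹).summable_iff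
      (f := fun i => ‖ξ.coord i‖ ^ (2 : ℝ≥0∞).toReal)).2
      ((memℓp_gen_iff (by simp)).1 (memlp_coord ξ)))

/-- The translate `x ↦ ξ(g⁻¹ x)` of `ξ ∈ ℓ²(Γ)`. -/
def shift (g : Γ) (ξ : Hil Γ) : Hil Γ :=
  (⟨fun x => ξ.coord (g⁻¹ * x), memlp_shift g ξ⟩ : lp (fun _ : Γ => ℂ) 2)

omit [Group Γ] in
theorem Hil.ext {ξ η : Hil Γ} (h : ∀ x, ξ.coord x = η.coord x) : ξ = η :=
  lp.ext (funext h)

theorem shift_add (g : Γ) (ξ η : Hil Γ) : shift g (ξ + η) = shift g ξ + shift g η :=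
  Hil.ext fun _ => rfl

theorem shift_smul (g : Γ) (c : ℂ) (ξ : Hil Γ) : shift g (c • ξ) = c • shift g ξ :=
  Hil.ext fun _ => rfl

omit [Group Γ] in
theorem Hil.norm_eq (ξ : Hil Γ) :
    ‖ξ‖ = (∑' i, ‖ξ.coord i‖ ^ (2 : ℝ≥0∞).toReal) ^ (1 / (2 : ℝ≥0∞).toReal) :=
  lp.norm_eq_tsum_rpow (by simp) (show lp (fun _ : Γ => ℂ) 2 from ξ)

theorem norm_shift_le (g : Γ) (ξ : Hil Γ) : ‖shift g ξ‖ ≤ 1 * ‖ξ‖ := by
  rw [one_mul, Hil.norm_eq, Hil.norm_eq]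
  refine le_of_eq ?_
  congr 1
  exact (Equiv.mulLeft g⁻¹).tsum_eq (fun i => ‖ξ.coord i‖ ^ (2 : ℝ≥0∞).toReal)

/-- The left regular unitary `u_g` of `Γ`: `(u_g ξ)(x) = ξ(g⁻¹ x)`, so that `u_g δ_h = δ_{gh}`. -/
def u (g : Γ) : B Γ :=
  (LinearMap.mkContinuous ⟨⟨shift g, shift_add g⟩, shift_smul g⟩ 1 (norm_shift_le g) :
    Hil Γ →L[ℂ] Hil Γ)

/-- The Fourier coefficient `τ(u_g^* x) = ⟨x δ_e, δ_g⟩` at `g ∈ Γ` of `x ∈ L(Γ)` (Mathlib's inner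
product is linear in its second variable). -/
def coef (x : B Γ) (g : Γ) : ℂ := ⟪delta g, x.app (delta 1)⟫_ℂ

variable (Γ)

/-- The group von Neumann algebra `L(Γ)`: the double commutant of `{u_g : g ∈ Γ}`. -/
def LG : Set (B Γ) := {x | ∀ y : B Γ, (∀ g : Γ, y * u g = u g * y) → x * y = y * x}

/-- `Γ` is ICC: every nontrivial conjugacy class is infinite. -/
def IsICC : Prop := ∀ g : Γ, g ≠ 1 → {x : Γ | IsConj g x}.Infinite

end

/-- `π` is a unitary representation of the group `G` on the Hilbert space `H`: each `π g` is a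
linear isometry, `π 1` is the identity and `π (g h) = π g ∘ π h` (so `π g` is onto, with inverse
`π g⁻¹`). -/
structure IsUnitaryRep {G H : Type} [Group G] [NormedAddCommGroup H] [InnerProductSpace ℂ H]
    (π : G → H → H) : Prop where
  map_add : ∀ g x y, π g (x + y) = π g x + π g y
  map_smul : ∀ g (c : ℂ) x, π g (c • x) = c • π g x
  norm_map : ∀ g x, ‖π g x‖ = ‖x‖
  map_one : ∀ x, π 1 x = x
  map_mul : ∀ g h x, π (g * h) x = π g (π h x)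

/-- Kazhdan's property (T) for a discrete group: there are a finite set `Q` and `ε > 0` such that
every unitary representation with a nonzero `(Q, ε)`-invariant vector has a nonzero invariant
vector. -/
def PropertyT (Γ : Type) [Group Γ] : Prop :=
  ∃ (Q : Finset Γ) (ε : ℝ), 0 < ε ∧
    ∀ (H : Type) [NormedAddCommGroup H] [InnerProductSpace ℂ H] [CompleteSpace H]
      (π : Γ → H → H), IsUnitaryRep π →
      (∃ ξ : H, ξ ≠ 0 ∧ ∀ g ∈ Q, ‖π g ξ - ξ‖ < ε * ‖ξ‖) →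
        ∃ ξ : H, ξ ≠ 0 ∧ ∀ g : Γ, π g ξ = ξ

/-- An isomorphism of `L(Λ)` with an amplification `L(Γ)^t = p M_n(L(Γ)) p` of `L(Γ)`: a
projection `p ∈ M_n(L(Γ))` and an injective `*`-homomorphism `L(Λ) → M_n(L(Γ))` whose image is
exactly `p M_n(L(Γ)) p`. -/
structure AmpIso (Γ Λ : Type) [Group Γ] [Group Λ] (n : ℕ) where
  /-- the projection cutting down `M_n(L(Γ))` -/
  p : Matrix (Fin n) (Fin n) (B Γ)
  p_mem : ∀ i j, p i j ∈ LG Γ
  p_mul : p * p = p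
  p_star : p.conjTranspose = p
  /-- the isomorphism; only its values on `L(Λ)` matter -/
  φ : B Λ → Matrix (Fin n) (Fin n) (B Γ)
  mem : ∀ x ∈ LG Λ, ∀ i j, φ x i j ∈ LG Γ
  map_add : ∀ x ∈ LG Λ, ∀ y ∈ LG Λ, φ (x + y) = φ x + φ y
  map_smul : ∀ (c : ℂ), ∀ x ∈ LG Λ, φ (c • x) = c • φ x
  map_mul : ∀ x ∈ LG Λ, ∀ y ∈ LG Λ, φ (x * y) = φ x * φ y
  map_star : ∀ x ∈ LG Λ, φ (star x) = (φ x).conjTranspose
  injOn : Set.InjOn φ (LG Λ)
  image_eq : φ '' LG Λ = {y | (∀ i j, y i j ∈ LG Γ) ∧ p * y * p = y}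

namespace AmpIso

variable {Γ Λ : Type} [Group Γ] [Group Λ] {n : ℕ}

/-- The amplification parameter `t = (Tr ⊗ τ)(p)`. -/
def t (Φ : AmpIso Γ Λ n) : ℂ := ∑ i, coef (Φ.p i i) 1

/-- `Φ : L(Λ) ≅ p M_n(L(Γ)) p` is canonical: `t = 1` and, after the identification of
`p M_n(L(Γ)) p` with `L(Γ)` given by a column `w` over `L(Γ)` with `w^* w = 1`, `w w^* = p`, it
comes from a group isomorphism `δ : Γ ≃ Λ` and a character `χ` of `Γ`:
`Φ(v_{δ(g)}) = χ(g) w u_g w^*`, where `v_s` are the canonical unitaries of `L(Λ)`. -/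
def IsCanonical (Φ : AmpIso Γ Λ n) : Prop :=
  Φ.t = 1 ∧ ∃ (δ : Γ ≃* Λ) (χ : Γ →* Circle) (w : Fin n → B Γ), (∀ i, w i ∈ LG Γ) ∧
    ∑ i, star (w i) * w i = 1 ∧ (∀ i j, w i * star (w j) = Φ.p i j) ∧
    ∀ g i j, Φ.φ (u (δ g)) i j = (χ g : ℂ) • (w i * u g * star (w j))

/-- The sum of the fourth powers of the Fourier coefficients at `g ∈ Γ` of all the unitaries
`Φ(v_s) ∈ M_n(L(Γ))`, `s ∈ Λ`:  `∑_s ∑_{i,j} |τ(u_g^* Φ(v_s)_{ij})|⁴`. For `n = 1`, `p = 1` this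
is `∑_s |τ(θ(u_g)^* v_s)|⁴`, the fourth power sum of the coefficients of `θ(u_g)`,
`θ = Φ⁻¹`, in the canonical unitaries `v_s` of `L(Λ)`. -/
def fourth (Φ : AmpIso Γ Λ n) (g : Γ) : ℝ≥0∞ :=
  ∑' s : Λ, ∑ i, ∑ j, ‖coef (Φ.φ (u s) i j) g‖ₑ ^ 4

end AmpIso

/-- The average of `f` over all the products `s_1 ⋯ s_k` with `s_i` in the finite set `S`: its
expectation at time `k` of the random walk on `Γ` with steps uniform in `S`. -/
def walkAvg {Γ : Type} [Group Γ] (S : Finset Γ) (k : ℕ) (f : Γ → ℝ≥0∞) : ℝ≥0∞ :=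
  (∑ s : Fin k → S, f (List.ofFn fun i => (s i : Γ)).prod) / (S.card : ℝ≥0∞) ^ k

end

end Vale.Agent.P092.Stmt
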