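import Vale.Agent.P092.Stmt

/-!
# P092: coefficients of unitary representations without invariant vectors
-/

namespace Vale.Agent.P092.Stmt

open scoped InnerProductSpace ENNReal

/-- `f` is a coefficient `g ↦ ⟨π(g) ξ, ξ⟩` of a unitary representation of `Γ` without nonzero
invariant vectors (Mathlib's inner product is linear in its second variable). -/
def IsCoefNoInv {Γ : Type} [Group Γ] (f : Γ → ℝ≥0∞) : Prop :=
  ∃ (K : Type) (_ : NormedAddCommGroup K) (_ : InnerProductSpace ℂ K) (_ : CompleteSpace K)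
    (π : Γ → K → K) (ξ : K), IsUnitaryRep π ∧ (∀ η : K, (∀ g, π g η = η) → η = 0) ∧
      ∀ g, f g ≠ ∞ ∧ ⟪ξ, π g ξ⟫_ℂ = ((f g).toReal : ℂ)

end Vale.Agent.P092.Stmt
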