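import Vale.Agent.P092.Stmt

/-!
# P092: subgroup algebras, frames, root subgroups

Further definitions used by the statements handed in.
-/

namespace Vale.Agent.P092.Stmt

noncomputable section

/-- The von Neumann algebra `L(S) ⊆ L(Γ)` generated by the `u_g`, `g ∈ S`, for a subset `S = S⁻¹`
of `Γ`: the double commutant of `{u_g : g ∈ S}`. -/
def LS {Γ : Type} [Group Γ] (S : Set Γ) : Set (B Γ) :=
  {x | ∀ y : B Γ, (∀ g ∈ S, y * u g = u g * y) → x * y = y * x}

/-- A Heisenberg pair `(A, B)` of subgroups: `A` and `B` are abelian, the commutators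
`a b a⁻¹ b⁻¹` commute with `A` and with `B`, and nontrivial elements of `A` and of `B` never
commute. -/
structure HeisPair {Γ : Type} [Group Γ] (A B : Subgroup Γ) : Prop where
  commA : ∀ a ∈ A, ∀ a' ∈ A, a * a' = a' * a
  commB : ∀ b ∈ B, ∀ b' ∈ B, b * b' = b' * b
  centA : ∀ a ∈ A, ∀ b ∈ B, ∀ a' ∈ A, a * b * a⁻¹ * b⁻¹ * a' = a' * (a * b * a⁻¹ * b⁻¹)
  centB : ∀ a ∈ A, ∀ b ∈ B, ∀ b' ∈ B, a * b * a⁻¹ * b⁻¹ * b' = b' * (a * b * a⁻¹ * b⁻¹)
  nondeg : ∀ a ∈ A, ∀ b ∈ B, a * b = b * a → a = 1 ∨ b = 1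

namespace AmpIso

variable {Γ Λ : Type} [Group Γ] [Group Λ] {n : ℕ} (Φ : AmpIso Γ Λ n)

/-- `w` is a column over `L(Γ)` with `w^* w = 1` and `w w^* = p`: it identifies the corner
`p M_n(L(Γ)) p` with `L(Γ)`, by `y ↦ w^* y w` (and so `t = 1`). -/
def IsFrame (w : Fin n → B Γ) : Prop :=
  (∀ i, w i ∈ LG Γ) ∧ ∑ i, star (w i) * w i = 1 ∧ ∀ i j, w i * star (w j) = Φ.p i j

/-- The canonical unitary `v_s` of `L(Λ)` seen in `L(Γ)`: `V_s = w^* Φ(v_s) w`. -/
def V (w : Fin n → B Γ) (s : Λ) : B Γ := ∑ i, ∑ j, star (w i) * Φ.φ (u s) i j * w j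

/-- `L(S)` contains infinitely many of the canonical unitaries `V_s` of `L(Λ)`. -/
def Meets (w : Fin n → B Γ) (S : Set Γ) : Prop := {s : Λ | Φ.V w s ∈ LS S}.Infinite

/-- `u_g` is a scalar multiple of some canonical unitary `V_s`. -/
def IsCan (w : Fin n → B Γ) (g : Γ) : Prop := ∃ (s : Λ) (ζ : ℂ), Φ.V w s = ζ • u g

end AmpIso

/-- `Γ` as the quotient by a central subgroup of a group `G` of invertible `m × m` matrices over
the field `K` containing the elementary matrices `1 + k r E_ij`, `i ≠ j`, `r ∈ R`, for some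
`k ≠ 0` in the subring `R` of `K` (the map `R → K` will be injective). -/
structure ElemQuot (R K : Type) [CommRing R] [Field K] [Algebra R K] (m : ℕ) (Γ : Type)
    [Group Γ] where
  G : Subgroup (Matrix.GeneralLinearGroup (Fin m) K)
  k : R
  k_ne_zero : k ≠ 0
  mem : ∀ i j : Fin m, i ≠ j → ∀ r : R, ∃ x ∈ G,
    x.val = Matrix.transvection i j (algebraMap R K (k * r))
  π : G →* Γ
  surjective : Function.Surjective π
  ker_le : π.ker ≤ Subgroup.center G

namespace ElemQuot

variable {R K : Type} [CommRing R] [Field K] [Algebra R K] {m : ℕ} {Γ : Type} [Group Γ]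
  (D : ElemQuot R K m Γ)

/-- The root subgroup: the image in `Γ` of all the elementary matrices `1 + c E_ij ∈ G`,
`c ∈ K`. -/
def root (i j : Fin m) : Set Γ :=
  {g | ∃ (x : D.G) (c : K), x.1.val = Matrix.transvection i j c ∧ D.π x = g}

/-- The image in `Γ` of the elementary matrix `1 + a E_ij`, `a ∈ R`, if it is in `G` (a set with
at most one element). -/
def elt (i j : Fin m) (a : R) : Set Γ :=
  {g | ∃ x : D.G, x.1.val = Matrix.transvection i j (algebraMap R K a) ∧ D.π x = g}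

end ElemQuot

end

end Vale.Agent.P092.Stmt
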